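import Vale.Agent.P121.Defs
import Vale.Agent.P121.Main

open scoped ENNReal
open MeasureTheory

namespace Vale.Agent.Results.P121.NoMongePlan

open Vale.Agent.P121

/-- There is an absolutely continuous probability measure on three-space with finite Kantorovich
value for the Coulomb cost which admits no optimal Monge plan. -/
theorem result : ∃ μ : Measure R3, IsProbabilityMeasure μ ∧ μ ≪ volume ∧
    kantorovich μ < ⊤ ∧
    ¬ ∃ T₂ T₃ : R3 → R3, Measurable T₂ ∧ Measurable T₃ ∧ μ.map T₂ = μ ∧ μ.map T₃ = μ ∧
      ∫⁻ x, coulomb x (T₂ x) (T₃ x) ∂μ = kantorovich μ :=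
  no_monge

end Vale.Agent.Results.P121.NoMongePlan
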